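import Mathlib

namespace Vale.Agent.Results.P144.NearestNeighbourFamily

open Finset

/-- Sites of the square lattice (lattice units; the mesh plays no role in the statement). -/
abbrev Site := ℤ × ℤ

/-- Spin configurations on the whole lattice: `true` is spin `+1`, `false` is spin `-1`. -/
abbrev Config := Site → Bool

/-- The value `±1` of a spin. -/
def spin (b : Bool) : ℝ := if b then 1 else -1

/-- `A` is a nearest-neighbour pair `{u, v}`, `|u - v| = 1`. -/
def IsBond (A : Finset Site) : Prop :=
  ∃ u v : Site, A = {u, v} ∧ |u.1 - v.1| + |u.2 - v.2| = 1

/-- The product of the spins of `σ` over the sites of `A`. -/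
def spinProd (σ : Config) (A : Finset Site) : ℝ := ∏ x ∈ A, spin (σ x)

open Classical in
/-- The Hamiltonian with nearest-neighbour coupling `J` and perturbation `lam * V`, where the
terms kept are those indexed by the finite family `T` of finite sets of sites:
`H(σ) = - J ∑_{A ∈ T, A a bond} σ_A - lam ∑_{A ∈ T} V(A) σ_A`.
(Free boundary condition on a domain `D`: `T` = all subsets of `D`. Fixed boundary condition:
`T` = all sets within the range of `V` which meet `D`.) -/
noncomputable def energy (J lam : ℝ) (V : Finset Site → ℝ) (T : Finset (Finset Site))
    (σ : Config) : ℝ :=
  - J * ∑ A ∈ T.filter IsBond, spinProd σ A - lam * ∑ A ∈ T, V A * spinProd σ A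

open Classical in
/-- The configuration which equals `η` on `D` and the prescribed configuration `τ` outside. -/
noncomputable def extend (D : Finset Site) (τ : Config) (η : D → Bool) : Config :=
  fun x => if h : x ∈ D then η ⟨x, h⟩ else τ x

/-- The finite-volume Gibbs expectation of an observable `F` at inverse temperature `β`:
spins in `D` are summed over, spins outside `D` are frozen to `τ`, weight `exp (-β H)`. -/
noncomputable def gibbs (β J lam : ℝ) (V : Finset Site → ℝ) (D : Finset Site) (τ : Config)
    (T : Finset (Finset Site)) (F : Config → ℝ) : ℝ :=
  (∑ η : D → Bool, F (extend D τ η) * Real.exp (- β * energy J lam V T (extend D τ η))) /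
    ∑ η : D → Bool, Real.exp (- β * energy J lam V T (extend D τ η))

open Classical in
/-- The perturbation which is itself a nearest-neighbour pair interaction of strength `c`:
`V(A) = c` if `A` is a nearest-neighbour pair and `V(A) = 0` otherwise. It is even, of finite
range and invariant under all lattice symmetries. -/
noncomputable def bondPotential (c : ℝ) : Finset Site → ℝ := fun A => if IsBond A then c else 0

/-- The critical coupling `K_c = (1/2) log (1 + √2)` of the square-lattice Ising model. -/
noncomputable def Kc : ℝ := Real.log (1 + Real.sqrt 2) / 2

open Classical in
lemma energy_bondPotential (J lam c : ℝ) (T : Finset (Finset Site)) (σ : Config) :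
    energy J lam (bondPotential c) T σ
      = - (J + lam * c) * ∑ A ∈ T.filter IsBond, spinProd σ A := by
  unfold energy bondPotential
  have h : ∑ A ∈ T, (if IsBond A then c else 0) * spinProd σ A
      = c * ∑ A ∈ T.filter IsBond, spinProd σ A := by
    rw [Finset.sum_filter, Finset.mul_sum]
    refine Finset.sum_congr rfl fun A _ => ?_
    by_cases hA : IsBond A <;> simp [hA]
  rw [h]
  ring

/-- **The nearest-neighbour family of perturbations.** Let `J > 0` and let the perturbation be
`V = bondPotential c`. For every `lam` with `J + lam c > 0` (in particular for `|lam| < J/|c|`)
put `β_c(lam) = K_c / (J + lam c)`. Then for every finite domain `D`, every exterior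
configuration `τ`, every finite family `T` of interaction terms and every observable `F`, the
Gibbs expectation of `F` for the perturbed Hamiltonian at inverse temperature `β_c(lam)` equals
the Gibbs expectation of `F` for the unperturbed Hamiltonian (`lam = 0`) at the critical inverse
temperature `β_0 = K_c / J`. -/
theorem result (J c lam : ℝ) (hJ : 0 < J) (hpos : 0 < J + lam * c)
    (D : Finset Site) (τ : Config) (T : Finset (Finset Site)) (F : Config → ℝ) :
    gibbs (Kc / (J + lam * c)) J lam (bondPotential c) D τ T F
      = gibbs (Kc / J) J 0 (bondPotential c) D τ T F := by
  have key : ∀ σ : Config,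
      - (Kc / (J + lam * c)) * energy J lam (bondPotential c) T σ
        = - (Kc / J) * energy J 0 (bondPotential c) T σ := by
    intro σ
    rw [energy_bondPotential, energy_bondPotential]
    field_simp
    ring
  unfold gibbs
  simp only [key]

end Vale.Agent.Results.P144.NearestNeighbourFamily
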